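import Mathlib

/-!
Broadcasting with the `q`-state Potts channel on the rooted `d`-ary tree.
-/

namespace Vale.Agent.P154

/-- The Potts channel `P_lam(j | i) = lam * 1{i = j} + (1 - lam) / q` on `Fin q`. -/
noncomputable def potts (q : ℕ) (lam : ℝ) (i j : Fin q) : ℝ :=
  lam * (if i = j then 1 else 0) + (1 - lam) / q

/-- Spin configurations on level `n` of the rooted `d`-ary tree: a single spin for `n = 0`, and for
`n + 1` one level-`n` configuration for the subtree of each of the `d` children of the root. -/
def Conf (q d : ℕ) : ℕ → Type
  | 0 => Fin q
  | n + 1 => Fin d → Conf q d n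

/-- Each `Conf q d n` is a finite type. -/
instance instFintypeConf (q d : ℕ) : (n : ℕ) → Fintype (Conf q d n)
  | 0 => inferInstanceAs (Fintype (Fin q))
  | n + 1 => @Pi.instFintype (Fin d) (fun _ => Conf q d n) _ _ (fun _ => instFintypeConf q d n)

/-- `lik q d lam n i w` is the probability that the spins on level `n` equal `w`, given that the
root spin is `i`: each child receives the spin of the root through the Potts channel, and the
subtrees of the children evolve independently. -/
noncomputable def lik (q d : ℕ) (lam : ℝ) : (n : ℕ) → Fin q → Conf q d n → ℝ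
  | 0, i, w => if (show Fin q from w) = i then 1 else 0
  | n + 1, i, w => ∏ k : Fin d, ∑ j : Fin q, potts q lam i j * lik q d lam n j (w k)

/-- The probability of the level-`n` configuration `w` when the root spin is uniform. -/
noncomputable def prob (q d : ℕ) (lam : ℝ) (n : ℕ) (w : Conf q d n) : ℝ :=
  ∑ i : Fin q, (1 / (q : ℝ)) * lik q d lam n i w

/-- The posterior probability that the root spin is `i`, given the level-`n` configuration `w`. -/
noncomputable def post (q d : ℕ) (lam : ℝ) (n : ℕ) (i : Fin q) (w : Conf q d n) : ℝ :=
  (1 / (q : ℝ)) * lik q d lam n i w / prob q d lam n w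

/-- `a_n`: the expected total-variation distance between the posterior of the root spin given the
spins on level `n` and the uniform distribution. -/
noncomputable def aSeq (q d : ℕ) (lam : ℝ) (n : ℕ) : ℝ :=
  ∑ w : Conf q d n, prob q d lam n w * ((1 / 2) * ∑ i : Fin q, |post q d lam n i w - 1 / (q : ℝ)|)

end Vale.Agent.P154
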