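import Vale.Agent.Lib.P154.Defs

namespace Vale.Agent.P154

open Finset

open scoped Classical in
/-- `Forced d n i w`: the level-`n` configuration `w` forces the root colour to be `i`
(sufficient recursive condition for proper 4-colourings). -/
def Forced (d : ℕ) : (n : ℕ) → Fin 4 → Conf 4 d n → Prop
  | 0, i, w => (show Fin 4 from w) = i
  | n + 1, i, w => ∀ j, j ≠ i → ∃ k, Forced d n j (w k)

lemma potts_col (i j : Fin 4) : potts 4 (-1 / 3) i j = if i = j then 0 else 1 / 3 := by
  unfold potts
  split_ifs <;> norm_num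

lemma potts_col_nonneg (i j : Fin 4) : 0 ≤ potts 4 (-1 / 3) i j := by
  rw [potts_col]; split_ifs <;> norm_num

lemma potts_col_sum (i : Fin 4) : ∑ j, potts 4 (-1 / 3) i j = 1 := by
  simp only [potts_col]
  fin_cases i <;> simp [Fin.sum_univ_four] <;> norm_num

variable (d : ℕ)

/-- abbreviation for the likelihood in the colouring case -/
noncomputable abbrev L (n : ℕ) (i : Fin 4) (w : Conf 4 d n) : ℝ := lik 4 d (-1 / 3) n i w

lemma L_zero (i : Fin 4) (w : Conf 4 d 0) : L d 0 i w = if (show Fin 4 from w) = i then 1 else 0 := rfl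

lemma L_succ (n : ℕ) (i : Fin 4) (w : Conf 4 d (n + 1)) :
    L d (n + 1) i w = ∏ k : Fin d, ∑ j : Fin 4, potts 4 (-1 / 3) i j * L d n j (w k) := rfl

lemma L_nonneg : ∀ (n : ℕ) (i : Fin 4) (w : Conf 4 d n), 0 ≤ L d n i w
  | 0, i, w => by rw [L_zero]; split_ifs <;> norm_num
  | n + 1, i, w => by
    rw [L_succ]
    exact prod_nonneg fun k _ => sum_nonneg fun j _ =>
      mul_nonneg (potts_col_nonneg i j) (L_nonneg n j (w k))

/-- the law of one child's subtree configuration given the colour of the parent -/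
noncomputable def mu (n : ℕ) (i : Fin 4) (w : Conf 4 d n) : ℝ :=
  ∑ j : Fin 4, potts 4 (-1 / 3) i j * L d n j w

lemma mu_nonneg (n : ℕ) (i : Fin 4) (w : Conf 4 d n) : 0 ≤ mu d n i w :=
  sum_nonneg fun j _ => mul_nonneg (potts_col_nonneg i j) (L_nonneg d n j w)

lemma sum_prod_conf (n : ℕ) (g : Conf 4 d n → ℝ) :
    ∑ w : Conf 4 d (n + 1), ∏ k : Fin d, g (w k) = (∑ w : Conf 4 d n, g w) ^ d := by
  have := (Fintype.sum_pow (fun w : Conf 4 d n => g w) d)
  rw [this]
  rfl

lemma L_sum : ∀ (n : ℕ) (i : Fin 4), ∑ w : Conf 4 d n, L d n i w = 1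
  | 0, i => by
    simp only [L_zero]
    show ∑ w : Fin 4, (if w = i then (1 : ℝ) else 0) = 1
    simp
  | n + 1, i => by
    simp only [L_succ]
    rw [sum_prod_conf d n (fun w => ∑ j : Fin 4, potts 4 (-1 / 3) i j * L d n j w)]
    rw [sum_comm]
    simp only [← mul_sum, L_sum n, mul_one, potts_col_sum, one_pow]

lemma mu_sum (n : ℕ) (i : Fin 4) : ∑ w : Conf 4 d n, mu d n i w = 1 := by
  unfold mu
  rw [sum_comm]
  simp only [← mul_sum, L_sum, mul_one, potts_col_sum]

lemma forced_zero : ∀ (n : ℕ) (i : Fin 4) (w : Conf 4 d n), Forced d n i w →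
    ∀ j, j ≠ i → L d n j w = 0
  | 0, i, w => by
    intro h j hj
    rw [L_zero]
    have h' : (show Fin 4 from w) = i := h
    rw [if_neg]
    rw [h']
    exact fun h => hj h.symm
  | n + 1, i, w => by
    intro h j hj
    obtain ⟨k, hk⟩ := h j hj
    rw [L_succ]
    apply prod_eq_zero (mem_univ k)
    apply sum_eq_zero
    intro j' _
    by_cases hjj : j = j'
    · subst hjj
      rw [potts_col, if_pos rfl, zero_mul]
    · rw [forced_zero n j (w k) hk j' (fun h => hjj h.symm), mul_zero]

open scoped Classical in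
/-- probability that the root is forced, given that its colour is `i` -/
noncomputable def pF (n : ℕ) (i : Fin 4) : ℝ :=
  ∑ w : Conf 4 d n, if Forced d n i w then L d n i w else 0

open scoped Classical in
lemma third_pF_le (n : ℕ) (i j : Fin 4) (hij : j ≠ i) :
    pF d n j / 3 ≤ ∑ w : Conf 4 d n, if Forced d n j w then mu d n i w else 0 := by
  unfold pF
  rw [sum_div]
  apply sum_le_sum
  intro w _
  split_ifs with h
  · unfold mu
    have h1 : potts 4 (-1 / 3) i j * L d n j w ≤ ∑ j' : Fin 4, potts 4 (-1 / 3) i j' * L d n j' w :=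
      single_le_sum (f := fun j' => potts 4 (-1 / 3) i j' * L d n j' w)
        (fun j' _ => mul_nonneg (potts_col_nonneg i j') (L_nonneg d n j' w)) (mem_univ j)
    rw [potts_col, if_neg (fun h => hij h.symm)] at h1
    linarith
  · simp

open scoped Classical in
lemma not_forced_sum (n : ℕ) (i j : Fin 4) :
    (∑ w : Conf 4 d n, if Forced d n j w then 0 else mu d n i w)
      = 1 - ∑ w : Conf 4 d n, if Forced d n j w then mu d n i w else 0 := by
  rw [← mu_sum d n i, ← sum_sub_distrib]
  apply sum_congr rfl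
  intro w _
  split_ifs <;> ring

open scoped Classical in
lemma pF_succ_ge (n : ℕ) (i : Fin 4) :
    1 - ∑ j ∈ univ.erase i, (1 - ∑ w : Conf 4 d n, if Forced d n j w then mu d n i w else 0) ^ d
      ≤ pF d (n + 1) i := by
  have h1 : pF d (n + 1) i = 1 - ∑ w : Conf 4 d (n + 1),
      if Forced d (n + 1) i w then 0 else L d (n + 1) i w := by
    unfold pF
    rw [← L_sum d (n + 1) i, ← sum_sub_distrib]
    apply sum_congr rfl
    intro w _
    split_ifs <;> ring
  rw [h1]
  apply sub_le_sub_left
  have h2 : ∀ j, (1 - ∑ w : Conf 4 d n, if Forced d n j w then mu d n i w else 0) ^ d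
      = ∑ w : Conf 4 d (n + 1), ∏ k : Fin d, (if Forced d n j (w k) then 0 else mu d n i (w k)) := by
    intro j
    rw [← not_forced_sum, sum_prod_conf d n (fun w => if Forced d n j w then 0 else mu d n i w)]
  simp only [h2]
  rw [sum_comm]
  apply sum_le_sum
  intro w _
  split_ifs with h
  · exact sum_nonneg fun j _ => prod_nonneg fun k _ => by
      split_ifs
      · exact le_refl _
      · exact mu_nonneg d n i _
  · have h' : ∃ j, j ≠ i ∧ ∀ k, ¬ Forced d n j (w k) := by
      by_contra hcon
      apply h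
      intro j hj
      by_contra hk
      exact hcon ⟨j, hj, fun k hk' => hk ⟨k, hk'⟩⟩
    obtain ⟨j, hj, hk⟩ := h'
    have h3 : L d (n + 1) i w = ∏ k : Fin d, (if Forced d n j (w k) then 0 else mu d n i (w k)) := by
      rw [L_succ]
      apply prod_congr rfl
      intro k _
      rw [if_neg (hk k)]
      rfl
    rw [h3]
    exact single_le_sum
      (f := fun j => ∏ k : Fin d, (if Forced d n j (w k) then 0 else mu d n i (w k)))
      (fun j _ => prod_nonneg fun k _ => by
        split_ifs
        · exact le_refl _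
        · exact mu_nonneg d n i _) (mem_erase.2 ⟨hj, mem_univ j⟩)

open scoped Classical in
lemma forced_mu_le_one (n : ℕ) (i j : Fin 4) :
    (∑ w : Conf 4 d n, if Forced d n j w then mu d n i w else 0) ≤ 1 := by
  rw [← mu_sum d n i]
  apply sum_le_sum
  intro w _
  split_ifs
  · exact le_refl _
  · exact mu_nonneg d n i w

lemma pF_ge (hd : 9 ≤ d) : ∀ (n : ℕ) (i : Fin 4), 4 / 5 ≤ pF d n i
  | 0, i => by
    classical
    have : pF d 0 i = 1 := by
      unfold pF
      show ∑ w : Fin 4, (if Forced d 0 i w then L d 0 i w else 0) = 1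
      have : ∀ w : Fin 4, (if Forced d 0 i w then L d 0 i w else 0) = if w = i then (1 : ℝ) else 0 := by
        intro w
        by_cases h : w = i
        · have hf : Forced d 0 i w := h
          rw [if_pos hf, if_pos h]
          exact if_pos h
        · have hf : ¬ Forced d 0 i w := h
          rw [if_neg hf, if_neg h]
      simp only [this]
      simp
    rw [this]; norm_num
  | n + 1, i => by
    classical
    refine le_trans ?_ (pF_succ_ge d n i)
    have hb : ∀ j ∈ univ.erase i,
        (1 - ∑ w : Conf 4 d n, if Forced d n j w then mu d n i w else 0) ^ d ≤ (11 / 15 : ℝ) ^ 9 := by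
      intro j hj
      have hji : j ≠ i := (mem_erase.1 hj).1
      have h1 := third_pF_le d n i j hji
      have h2 := pF_ge hd n j
      have h3 := forced_mu_le_one d n i j
      set x := ∑ w : Conf 4 d n, if Forced d n j w then mu d n i w else 0
      have hx0 : 0 ≤ 1 - x := by linarith
      have hx1 : 1 - x ≤ 11 / 15 := by linarith
      calc (1 - x) ^ d ≤ (11 / 15 : ℝ) ^ d := pow_le_pow_left₀ hx0 hx1 d
        _ ≤ (11 / 15 : ℝ) ^ 9 := pow_le_pow_of_le_one (by norm_num) (by norm_num) hd
    have hs := sum_le_sum hb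
    rw [sum_const, card_erase_of_mem (mem_univ i)] at hs
    simp only [card_univ, Fintype.card_fin] at hs
    norm_num at hs ⊢
    linarith

end Vale.Agent.P154
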