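import Vale.Agent.Lib.P154.Frozen

namespace Vale.Agent.P154

open Finset

variable (d : ℕ)

open scoped Classical in
lemma tv_term_ge (n : ℕ) (w : Conf 4 d n) :
    (∑ i : Fin 4, if Forced d n i w then (3 / 16 : ℝ) * L d n i w else 0) ≤
      prob 4 d (-1 / 3) n w *
        ((1 / 2) * ∑ i : Fin 4, |post 4 d (-1 / 3) n i w - 1 / ((4 : ℕ) : ℝ)|) := by
  have hprob : 0 ≤ prob 4 d (-1 / 3) n w :=
    sum_nonneg fun i _ => mul_nonneg (by norm_num) (L_nonneg d n i w)
  by_cases hex : ∃ i0, Forced d n i0 w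
  · obtain ⟨i0, h0⟩ := hex
    have hz : ∀ j, j ≠ i0 → L d n j w = 0 := forced_zero d n i0 w h0
    have hz' : ∀ j, j ≠ i0 → lik 4 d (-1 / 3) n j w = 0 := hz
    have hlhs : (∑ i : Fin 4, if Forced d n i w then (3 / 16 : ℝ) * L d n i w else 0)
        = 3 / 16 * L d n i0 w := by
      rw [sum_eq_single i0]
      · rw [if_pos h0]
      · intro j _ hj
        split_ifs
        · rw [hz j hj, mul_zero]
        · rfl
      · intro h; exact absurd (mem_univ i0) h
    have hp : prob 4 d (-1 / 3) n w = 1 / 4 * L d n i0 w := by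
      unfold prob
      rw [sum_eq_single i0]
      · show 1 / ((4 : ℕ) : ℝ) * L d n i0 w = 1 / 4 * L d n i0 w
        push_cast
        rfl
      · intro j _ hj
        rw [hz' j hj, mul_zero]
      · intro h; exact absurd (mem_univ i0) h
    rw [hlhs]
    by_cases hL : L d n i0 w = 0
    · rw [hp, hL]; simp
    · have hpost0 : post 4 d (-1 / 3) n i0 w = 1 := by
        unfold post
        rw [hp]
        have : (1 / ((4 : ℕ) : ℝ)) * lik 4 d (-1 / 3) n i0 w = 1 / 4 * L d n i0 w := by
          show 1 / ((4 : ℕ) : ℝ) * L d n i0 w = 1 / 4 * L d n i0 w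
          push_cast
          rfl
        rw [this]
        exact div_self (by simpa using hL)
      have hpostj : ∀ j, j ≠ i0 → post 4 d (-1 / 3) n j w = 0 := by
        intro j hj
        unfold post
        rw [hz' j hj]; simp
      have hsum : ∑ i : Fin 4, |post 4 d (-1 / 3) n i w - 1 / ((4 : ℕ) : ℝ)| = 3 / 2 := by
        rw [← add_sum_erase univ _ (mem_univ i0), hpost0]
        have : ∀ j ∈ univ.erase i0, |post 4 d (-1 / 3) n j w - 1 / ((4 : ℕ) : ℝ)| = 1 / 4 := by
          intro j hj
          rw [hpostj j (mem_erase.1 hj).1]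
          norm_num [abs_of_nonneg]
        rw [sum_congr rfl this, sum_const, card_erase_of_mem (mem_univ i0)]
        simp only [card_univ, Fintype.card_fin]
        norm_num [abs_of_nonneg]
      rw [hsum, hp]
      apply le_of_eq
      ring
  · have : (∑ i : Fin 4, if Forced d n i w then (3 / 16 : ℝ) * L d n i w else 0) = 0 := by
      apply sum_eq_zero
      intro i _
      rw [if_neg (fun h => hex ⟨i, h⟩)]
    rw [this]
    exact mul_nonneg hprob (mul_nonneg (by norm_num) (sum_nonneg fun i _ => abs_nonneg _))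

theorem aSeq_colouring_ge (hd : 9 ≤ d) (n : ℕ) : 3 / 5 ≤ aSeq 4 d (-1 / 3) n := by
  classical
  have h1 : (∑ w : Conf 4 d n, ∑ i : Fin 4, if Forced d n i w then (3 / 16 : ℝ) * L d n i w else 0)
      ≤ aSeq 4 d (-1 / 3) n := by
    unfold aSeq
    exact sum_le_sum fun w _ => tv_term_ge d n w
  refine le_trans ?_ h1
  rw [sum_comm]
  have h2 : ∀ i : Fin 4, (∑ w : Conf 4 d n, if Forced d n i w then (3 / 16 : ℝ) * L d n i w else 0)
      = 3 / 16 * pF d n i := by
    intro i
    unfold pF
    rw [mul_sum]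
    apply sum_congr rfl
    intro w _
    split_ifs <;> simp
  simp only [h2]
  rw [Fin.sum_univ_four]
  have := pF_ge d hd n
  linarith [this 0, this 1, this 2, this 3]

end Vale.Agent.P154
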